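import Mathlib

open MeasureTheory Filter Topology

namespace Vale.Agent.Results.P112.TruncationNecessary

abbrev Plane := EuclideanSpace ℝ (Fin 2)

noncomputable def truncHilbert (v : Plane → Plane) (ε a : ℝ) (f : Plane → ℝ) (x : Plane) : ℝ :=
  ∫ t in {t : ℝ | ε < |t| ∧ |t| < a}, f (x - t • v x) / t

noncomputable def pvHilbert (v : Plane → Plane) (a : ℝ) (f : Plane → ℝ) (x : Plane) : ℝ :=
  limUnder (𝓝[>] (0 : ℝ)) (fun ε => truncHilbert v ε a f x)

def SteinEstimate (a₀ C : ℝ) : Prop :=
  ∀ v : Plane → Plane, (∀ x, ‖v x‖ = 1) → LipschitzWith 1 v →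
    ∀ f : SchwartzMap Plane ℝ, ∀ lam : ℝ, 0 < lam →
      volume {x : Plane | lam < |pvHilbert v a₀ f x|}
        ≤ ENNReal.ofReal (C * lam⁻¹ ^ 2 * ∫ x, (f x) ^ 2)

noncomputable def clampMap (x : Plane) : Plane := !₂[max (x 0) 1, x 1]

noncomputable def focusField (x : Plane) : Plane := (‖clampMap x‖)⁻¹ • clampMap x

lemma one_le_norm_clampMap (x : Plane) : 1 ≤ ‖clampMap x‖ := by
  have h := PiLp.norm_apply_le (clampMap x) 0
  have h2 : (clampMap x) 0 = max (x 0) 1 := by simp [clampMap]
  rw [h2, Real.norm_eq_abs] at h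
  have h3 : (1 : ℝ) ≤ max (x 0) 1 := le_max_right _ _
  have h4 := le_abs_self (max (x 0) 1)
  linarith

lemma norm_focusField (x : Plane) : ‖focusField x‖ = 1 := by
  have h := one_le_norm_clampMap x
  rw [focusField, norm_smul, norm_inv, norm_norm]
  exact inv_mul_cancel₀ (by linarith)

lemma norm_clampMap_sub_le (x y : Plane) : ‖clampMap x - clampMap y‖ ≤ ‖x - y‖ := by
  rw [EuclideanSpace.norm_eq, EuclideanSpace.norm_eq]
  apply Real.sqrt_le_sqrt
  simp only [Fin.sum_univ_two, Real.norm_eq_abs, sq_abs]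
  have h0 : (clampMap x - clampMap y) 0 = max (x 0) 1 - max (y 0) 1 := by simp [clampMap]
  have h1 : (clampMap x - clampMap y) 1 = x 1 - y 1 := by simp [clampMap]
  have h2 : (x - y) 0 = x 0 - y 0 := by simp
  have h3 : (x - y) 1 = x 1 - y 1 := by simp
  rw [h0, h1, h2, h3]
  have h4 : |max (x 0) 1 - max (y 0) 1| ≤ |x 0 - y 0| := abs_max_sub_max_le_abs _ _ _
  have h5 := sq_le_sq' (by linarith [abs_nonneg (max (x 0) 1 - max (y 0) 1), abs_nonneg (x 0 - y 0)]) h4
  rw [sq_abs, sq_abs] at h5
  linarith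

lemma norm_normalize_sub_le {y z : Plane} (hy : 1 ≤ ‖y‖) (hz : 1 ≤ ‖z‖) :
    ‖(‖y‖)⁻¹ • y - (‖z‖)⁻¹ • z‖ ≤ ‖y - z‖ := by
  have hy0 : 0 < ‖y‖ := by linarith
  have hz0 : 0 < ‖z‖ := by linarith
  apply le_of_sq_le_sq _ (norm_nonneg _)
  rw [norm_sub_sq_real, norm_sub_sq_real, norm_smul, norm_smul, norm_inv, norm_inv, norm_norm,
    norm_norm, inv_mul_cancel₀ hy0.ne', inv_mul_cancel₀ hz0.ne', inner_smul_left, inner_smul_right]
  simp only [RCLike.conj_to_real]
  set a := ‖y‖
  set b := ‖z‖
  set c := inner ℝ y z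
  have hc : c ≤ a * b := real_inner_le_norm y z
  have hab : 1 ≤ a * b := by nlinarith
  have key : a⁻¹ * (b⁻¹ * c) = c / (a * b) := by field_simp
  rw [key]
  have h1 : c / (a * b) ≤ 1 := by
    rw [div_le_one (by positivity)]; exact hc
  have h2 : c = (c / (a * b)) * (a * b) := by field_simp
  set d := c / (a * b)
  rw [h2]
  nlinarith [sq_nonneg (a - b), mul_nonneg (sub_nonneg.2 h1) (sub_nonneg.2 hab)]
noncomputable def e1 : Plane := EuclideanSpace.single 0 1

lemma norm_e1 : ‖e1‖ = 1 := by simp [e1]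

noncomputable def scl (j : ℕ) : ℝ := (1 / 2 : ℝ) ^ (j + 2)

lemma scl_pos (j : ℕ) : 0 < scl j := by unfold scl; positivity

lemma scl_le (j : ℕ) : scl j ≤ 1 / 4 := by
  unfold scl
  rw [pow_add]
  have : ((1:ℝ)/2)^j ≤ 1 := pow_le_one₀ (by norm_num) (by norm_num)
  nlinarith

lemma scl_succ (j : ℕ) : scl (j + 1) = scl j / 2 := by
  unfold scl; ring

lemma scl_anti {i j : ℕ} (h : i < j) : scl j ≤ scl i / 2 := by
  induction j, h using Nat.le_induction with
  | base => exact (scl_succ i).le
  | succ n hn ih =>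
    rw [scl_succ]
    have := scl_pos n
    linarith

noncomputable def bump (j : ℕ) : ContDiffBump (scl j • e1) where
  rIn := scl j / 8
  rOut := scl j / 4
  rIn_pos := by have := scl_pos j; positivity
  rIn_lt_rOut := by have := scl_pos j; linarith

lemma bump_eq_zero_of_le {j : ℕ} {y : Plane} (h : 5 / 4 * scl j ≤ ‖y‖) : bump j y = 0 := by
  apply (bump j).zero_of_le_dist
  have h1 : ‖y‖ ≤ ‖y - scl j • e1‖ + ‖scl j • e1‖ := by
    simpa using norm_add_le (y - scl j • e1) (scl j • e1)
  rw [norm_smul, norm_e1, Real.norm_eq_abs, abs_of_pos (scl_pos j)] at h1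
  rw [dist_eq_norm]
  show scl j / 4 ≤ _
  linarith

lemma bump_eq_zero_of_ge {j : ℕ} {y : Plane} (h : ‖y‖ ≤ 3 / 4 * scl j) : bump j y = 0 := by
  apply (bump j).zero_of_le_dist
  have h1 : ‖scl j • e1‖ ≤ ‖scl j • e1 - y‖ + ‖y‖ := by
    simpa using norm_add_le (scl j • e1 - y) y
  rw [norm_smul, norm_e1, Real.norm_eq_abs, abs_of_pos (scl_pos j)] at h1
  rw [dist_eq_norm, norm_sub_rev]
  show scl j / 4 ≤ _
  linarith

lemma bump_mul_bump {i j : ℕ} (h : i ≠ j) (y : Plane) : bump i y * bump j y = 0 := by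
  wlog hij : i < j generalizing i j
  · rw [mul_comm]; exact this h.symm (lt_of_le_of_ne (not_lt.1 hij) h.symm)
  by_cases hy : ‖y‖ ≤ 3 / 4 * scl i
  · rw [bump_eq_zero_of_ge hy, zero_mul]
  · rw [bump_eq_zero_of_le (j := j), mul_zero]
    have := scl_anti hij
    have := scl_pos i
    rw [not_le] at hy
    linarith

noncomputable def testFun (N : ℕ) (y : Plane) : ℝ := ∑ j ∈ Finset.range N, (2 : ℝ) ^ j * bump j y

lemma testFun_nonneg (N : ℕ) (y : Plane) : 0 ≤ testFun N y :=
  Finset.sum_nonneg fun j _ => mul_nonneg (by positivity) (bump j).nonneg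

lemma testFun_eq_zero {N : ℕ} {y : Plane} (h : 1 / 2 ≤ ‖y‖) : testFun N y = 0 := by
  apply Finset.sum_eq_zero
  intro j _
  rw [bump_eq_zero_of_le, mul_zero]
  have := scl_le j
  linarith

lemma testFun_contDiff (N : ℕ) : ContDiff ℝ (⊤ : ℕ∞) (testFun N) := by
  unfold testFun
  apply ContDiff.sum
  intro j _
  exact contDiff_const.mul (bump j).contDiff

lemma testFun_hasCompactSupport (N : ℕ) : HasCompactSupport (testFun N) := by
  apply HasCompactSupport.intro (isCompact_closedBall (0 : Plane) (1 / 2))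
  intro y hy
  apply testFun_eq_zero
  simp only [Metric.mem_closedBall, dist_zero_right, not_le] at hy
  exact hy.le

noncomputable def testSchwartz (N : ℕ) : SchwartzMap Plane ℝ :=
  (testFun_hasCompactSupport N).toSchwartzMap (testFun_contDiff N)

lemma testSchwartz_apply (N : ℕ) (y : Plane) : testSchwartz N y = testFun N y := rfl

lemma testFun_sq (N : ℕ) (y : Plane) :
    (testFun N y) ^ 2 = ∑ j ∈ Finset.range N, (4 : ℝ) ^ j * (bump j y) ^ 2 := by
  unfold testFun
  rw [sq, Finset.sum_mul_sum]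
  apply Finset.sum_congr rfl
  intro i hi
  rw [Finset.sum_eq_single i]
  · have : (4 : ℝ) ^ i = 2 ^ i * 2 ^ i := by rw [← mul_pow]; norm_num
    rw [this]; ring
  · intro j _ hj
    have := bump_mul_bump (Ne.symm hj) y
    calc (2 : ℝ) ^ i * bump i y * (2 ^ j * bump j y) = 2 ^ i * 2 ^ j * (bump i y * bump j y) := by ring
      _ = 0 := by rw [this, mul_zero]
  · intro h; exact absurd hi h

lemma integrable_bump_sq (j : ℕ) : Integrable (fun y : Plane => (bump j y) ^ 2) := by
  apply Integrable.mono' (bump j).integrable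
  · exact ((bump j).continuous.pow 2).aestronglyMeasurable
  · refine Eventually.of_forall fun y => ?_
    have h0 := (bump j).nonneg (x := y)
    have h1 := (bump j).le_one (x := y)
    rw [Real.norm_eq_abs, abs_of_nonneg (by positivity)]
    nlinarith

lemma integral_bump_sq_le (j : ℕ) :
    (4 : ℝ) ^ j * ∫ y, (bump j y) ^ 2 ≤ (volume : Measure Plane).real (Metric.closedBall 0 (1 / 16)) := by
  have h1 : ∫ y, (bump j y) ^ 2 ≤ ∫ y, bump j y := by
    apply integral_mono
    · exact integrable_bump_sq j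
    · exact (bump j).integrable
    · intro y
      have h0 := (bump j).nonneg (x := y)
      have h1 := (bump j).le_one (x := y)
      show (bump j y) ^ 2 ≤ bump j y
      nlinarith
  have h2 := (bump j).integral_le_measure_closedBall (μ := (volume : Measure Plane))
  have h3 : (volume : Measure Plane).real (Metric.closedBall (scl j • e1) (bump j).rOut)
      = ((1 / 4 : ℝ) ^ j) * (volume : Measure Plane).real (Metric.closedBall 0 (1 / 16)) := by
    have : (bump j).rOut = (1 / 2 : ℝ) ^ j * (1 / 16) := by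
      show scl j / 4 = _
      unfold scl; ring
    rw [this, Measure.real, Measure.addHaar_closedBall_mul _ _ (by positivity) (by norm_num),
      ENNReal.toReal_mul, ENNReal.toReal_ofReal (by positivity)]
    simp only [finrank_euclideanSpace, Fintype.card_fin, Measure.real]
    congr 1
    rw [← pow_mul, mul_comm, pow_mul]; norm_num
  have h4 : (4 : ℝ) ^ j * (1 / 4 : ℝ) ^ j = 1 := by rw [← mul_pow]; norm_num
  calc (4 : ℝ) ^ j * ∫ y, (bump j y) ^ 2 ≤ (4 : ℝ) ^ j * ((volume : Measure Plane).real (Metric.closedBall (scl j • e1) (bump j).rOut)) := by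
        apply mul_le_mul_of_nonneg_left (h1.trans h2) (by positivity)
    _ = _ := by rw [h3, ← mul_assoc, h4, one_mul]

lemma integral_testFun_sq_le (N : ℕ) :
    ∫ y, (testFun N y) ^ 2 ≤ N * (volume : Measure Plane).real (Metric.closedBall 0 (1 / 16)) := by
  simp_rw [testFun_sq]
  rw [integral_finsetSum]
  · simp_rw [integral_const_mul]
    calc ∑ j ∈ Finset.range N, (4 : ℝ) ^ j * ∫ y, (bump j y) ^ 2
        ≤ ∑ j ∈ Finset.range N, (volume : Measure Plane).real (Metric.closedBall 0 (1 / 16)) :=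
          Finset.sum_le_sum fun j _ => integral_bump_sq_le j
      _ = _ := by simp
  · intro j _
    exact (integrable_bump_sq j).const_mul _

lemma lipschitz_focusField : LipschitzWith 1 focusField := by
  apply LipschitzWith.of_dist_le_mul
  intro x y
  rw [dist_eq_norm, dist_eq_norm, NNReal.coe_one, one_mul]
  exact (norm_normalize_sub_le (one_le_norm_clampMap x) (one_le_norm_clampMap y)).trans
    (norm_clampMap_sub_le x y)

lemma clampMap_eq {x : Plane} (h : 1 ≤ x 0) : clampMap x = x := by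
  ext i
  fin_cases i <;> simp [clampMap, h]

lemma focusField_eq {x : Plane} (h : 1 ≤ x 0) : focusField x = (‖x‖)⁻¹ • x := by
  rw [focusField, clampMap_eq h]

lemma one_le_norm {x : Plane} (h : 1 ≤ x 0) : 1 ≤ ‖x‖ := by
  have := one_le_norm_clampMap x
  rwa [clampMap_eq h] at this

lemma sub_smul_focusField {x : Plane} (h : 1 ≤ x 0) (t : ℝ) :
    x - t • focusField x = (‖x‖ - t) • focusField x := by
  have hx : 0 < ‖x‖ := by linarith [one_le_norm h]
  rw [sub_smul]
  congr 1
  rw [focusField_eq h, smul_smul, mul_inv_cancel₀ hx.ne', one_smul]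

lemma testFun_line_eq_zero {x : Plane} (h : 1 ≤ x 0) (N : ℕ) {t : ℝ} (ht : t ≤ 1 / 2) :
    testFun N (x - t • focusField x) = 0 := by
  apply testFun_eq_zero
  rw [sub_smul_focusField h, norm_smul, norm_focusField, mul_one, Real.norm_eq_abs]
  have := one_le_norm h
  exact le_trans (by linarith) (le_abs_self _)

lemma truncHilbert_eq {x : Plane} (h : 1 ≤ x 0) (N : ℕ) {ε a : ℝ} (hε : ε ≤ 1 / 2) :
    truncHilbert focusField ε a (testFun N) x
      = ∫ t in Set.Ioo (1 / 2 : ℝ) a, testFun N (x - t • focusField x) / t := by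
  unfold truncHilbert
  apply setIntegral_eq_of_subset_of_forall_sdiff_eq_zero
  · exact ((isOpen_lt continuous_const continuous_abs).inter
      (isOpen_lt continuous_abs continuous_const)).measurableSet
  · intro t ht
    have h0 : 0 < t := by linarith [ht.1]
    simp only [Set.mem_ofPred_eq, abs_of_pos h0]
    exact ⟨by linarith [ht.1], ht.2⟩
  · intro t ht
    have h1 : t ≤ 1 / 2 := by
      by_contra hc
      rw [not_le] at hc
      apply ht.2
      have h0 : 0 < t := by linarith
      have := ht.1.2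
      rw [abs_of_pos h0] at this
      exact ⟨hc, this⟩
    rw [testFun_line_eq_zero h N h1, zero_div]

lemma pvHilbert_eq {x : Plane} (h : 1 ≤ x 0) (N : ℕ) (a : ℝ) :
    pvHilbert focusField a (testFun N) x
      = ∫ t in Set.Ioo (1 / 2 : ℝ) a, testFun N (x - t • focusField x) / t := by
  unfold pvHilbert
  apply Tendsto.limUnder_eq
  apply tendsto_const_nhds.congr'
  have : Set.Ioo (0 : ℝ) (1 / 2) ∈ 𝓝[>] (0 : ℝ) := Ioo_mem_nhdsGT (by norm_num)
  filter_upwards [this] with ε hε
  exact (truncHilbert_eq h N hε.2.le).symm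

lemma integrableOn_bump_line (x : Plane) (j : ℕ) (a : ℝ) :
    IntegrableOn (fun t : ℝ => bump j (x - t • focusField x) / t) (Set.Ioo (1 / 2 : ℝ) a) := by
  apply IntegrableOn.mono_set _ Set.Ioo_subset_Icc_self
  apply ContinuousOn.integrableOn_Icc
  apply ContinuousOn.div
  · apply Continuous.continuousOn
    exact (bump j).continuous.comp (by fun_prop)
  · exact continuousOn_id
  · intro t ht
    have := ht.1
    intro h0
    rw [h0] at this
    norm_num at this

lemma bump_line_lower {x : Plane} (h : 1 ≤ x 0) (hn : ‖x‖ ≤ 2)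
    (hw : ‖focusField x - e1‖ ≤ 1 / 16) (j : ℕ) {a : ℝ} (ha : ‖x‖ < a) :
    scl j / 16 ≤ ∫ t in Set.Ioo (1 / 2 : ℝ) a, bump j (x - t • focusField x) / t := by
  have hs := scl_pos j
  have hs4 := scl_le j
  have h1 := one_le_norm h
  set T := Set.Icc (‖x‖ - 17 / 16 * scl j) (‖x‖ - 15 / 16 * scl j) with hT
  have hTsub : T ⊆ Set.Ioo (1 / 2 : ℝ) a := by
    intro t ht
    exact ⟨by linarith [ht.1], by linarith [ht.2]⟩
  have hnonneg : ∀ t ∈ Set.Ioo (1 / 2 : ℝ) a, 0 ≤ bump j (x - t • focusField x) / t := by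
    intro t ht
    exact div_nonneg (bump j).nonneg (by linarith [ht.1])
  have step1 : ∫ t in T, bump j (x - t • focusField x) / t
      ≤ ∫ t in Set.Ioo (1 / 2 : ℝ) a, bump j (x - t • focusField x) / t := by
    apply setIntegral_mono_set (integrableOn_bump_line x j a)
    · rw [EventuallyLE, ae_restrict_iff' measurableSet_Ioo]
      exact Eventually.of_forall hnonneg
    · exact LE.le.eventuallyLE hTsub
  have step2 : ∫ t in T, (1 / 2 : ℝ) ≤ ∫ t in T, bump j (x - t • focusField x) / t := by
    apply setIntegral_mono_on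
    · exact integrableOn_const (by simp [hT]) 
    · exact (integrableOn_bump_line x j a).mono_set hTsub
    · exact measurableSet_Icc
    · intro t ht
      have hb : bump j (x - t • focusField x) = 1 := by
        apply (bump j).one_of_mem_closedBall
        rw [Metric.mem_closedBall, dist_eq_norm, sub_smul_focusField h]
        have e : (‖x‖ - t) • focusField x - scl j • e1
            = (‖x‖ - t - scl j) • focusField x + scl j • (focusField x - e1) := by
          rw [sub_smul, sub_smul, smul_sub, sub_smul]; abel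
        rw [e]
        refine (norm_add_le _ _).trans ?_
        rw [norm_smul, norm_smul, norm_focusField, mul_one, Real.norm_eq_abs, Real.norm_eq_abs,
          abs_of_pos hs]
        have h2 : |‖x‖ - t - scl j| ≤ scl j / 16 := by
          rw [abs_le]; constructor <;> linarith [ht.1, ht.2]
        have h3 : scl j * ‖focusField x - e1‖ ≤ scl j * (1 / 16) :=
          mul_le_mul_of_nonneg_left hw hs.le
        show _ ≤ scl j / 8
        linarith
      rw [hb]
      have ht0 : 0 < t := by linarith [(hTsub ht).1]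
      have ht2 : t ≤ 2 := by linarith [ht.2]
      rw [div_le_div_iff₀ (by norm_num) ht0]
      linarith
  have step3 : ∫ t in T, (1 / 2 : ℝ) = scl j / 16 := by
    rw [setIntegral_const, hT]
    simp only [Measure.real, Real.volume_Icc]
    rw [ENNReal.toReal_ofReal (by linarith)]
    simp only [smul_eq_mul]
    ring
  linarith

lemma pvHilbert_lower {x : Plane} (h : 1 ≤ x 0) (hn : ‖x‖ ≤ 2)
    (hw : ‖focusField x - e1‖ ≤ 1 / 16) (N : ℕ) {a : ℝ} (ha : ‖x‖ < a) :
    (N : ℝ) / 64 ≤ pvHilbert focusField a (testFun N) x := by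
  rw [pvHilbert_eq h]
  have e : ∀ t : ℝ, testFun N (x - t • focusField x) / t
      = ∑ j ∈ Finset.range N, (2 : ℝ) ^ j * (bump j (x - t • focusField x) / t) := by
    intro t
    unfold testFun
    rw [Finset.sum_div]
    apply Finset.sum_congr rfl
    intro j _
    ring
  simp_rw [e]
  rw [integral_finsetSum]
  · simp_rw [integral_const_mul]
    calc (N : ℝ) / 64 = ∑ j ∈ Finset.range N, (1 / 64 : ℝ) := by simp; ring
      _ ≤ _ := by
        apply Finset.sum_le_sum
        intro j _
        have := bump_line_lower h hn hw j ha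
        have h2 : (2 : ℝ) ^ j * (scl j / 16) = 1 / 64 := by
          unfold scl
          rw [pow_add, one_div, inv_pow]
          field_simp
          norm_num
        rw [← h2]
        exact mul_le_mul_of_nonneg_left this (by positivity)
  · intro j _
    exact (integrableOn_bump_line x j a).const_mul _



lemma failure (a₀ : ℝ) (ha : 1 < a₀) (C : ℝ) :
    ∃ f : SchwartzMap Plane ℝ, ∃ lam : ℝ, 0 < lam ∧
      ENNReal.ofReal (C * lam⁻¹ ^ 2 * ∫ x, (f x) ^ 2)
        < volume {x : Plane | lam < |pvHilbert focusField a₀ f x|} := by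
  set η : ℝ := min (a₀ - 1) 1 / 2 with hη
  have hη0 : 0 < η := by
    have : 0 < min (a₀ - 1) 1 := lt_min (by linarith) one_pos
    positivity
  have hη1 : 2 * η ≤ a₀ - 1 := by
    have := min_le_left (a₀ - 1) 1
    linarith
  have hη2 : 2 * η ≤ 1 := by
    have := min_le_right (a₀ - 1) 1
    linarith
  set z : Plane := (1 + η) • e1 with hz
  set R : Set Plane := Metric.ball z (η / 16) with hR
  have hz0 : z 0 = 1 + η := by simp [hz, e1]
  have hznorm : ‖z‖ = 1 + η := by
    rw [hz, norm_smul, norm_e1, mul_one, Real.norm_eq_abs, abs_of_pos (by linarith)]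
  have hzfield : focusField z = e1 := by
    rw [focusField_eq (by rw [hz0]; linarith), hznorm, hz, smul_smul,
      inv_mul_cancel₀ (by linarith), one_smul]
  have hRpos : 0 < volume R := Metric.measure_ball_pos _ _ (by positivity)
  have hRfin : volume R < ⊤ := measure_ball_lt_top
  set m : ℝ := (volume R).toReal with hm
  have hm0 : 0 < m := ENNReal.toReal_pos hRpos.ne' hRfin.ne
  set β : ℝ := (volume : Measure Plane).real (Metric.closedBall 0 (1 / 16)) with hβ
  have hβ0 : 0 ≤ β := measureReal_nonneg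
  obtain ⟨N, hN⟩ := exists_nat_gt (16384 * |C| * β / m)
  have hN0 : 0 < (N : ℝ) := lt_of_le_of_lt (by positivity) hN
  refine ⟨testSchwartz N, (N : ℝ) / 128, by positivity, ?_⟩
  have hsub : R ⊆ {x : Plane | (N : ℝ) / 128 < |pvHilbert focusField a₀ (testSchwartz N) x|} := by
    intro x hx
    rw [hR, Metric.mem_ball, dist_eq_norm] at hx
    have hx0 : 1 ≤ x 0 := by
      have h1 := PiLp.norm_apply_le (x - z) 0
      have h2 : (x - z) 0 = x 0 - z 0 := by simp
      rw [h2, hz0, Real.norm_eq_abs] at h1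
      have h3 := neg_abs_le (x 0 - (1 + η))
      linarith
    have hxn : ‖x‖ < 1 + 2 * η := by
      have h1 : ‖x‖ ≤ ‖x - z‖ + ‖z‖ := by simpa using norm_add_le (x - z) z
      rw [hznorm] at h1
      linarith
    have hw : ‖focusField x - e1‖ ≤ 1 / 16 := by
      have h1 := lipschitz_focusField.dist_le_mul x z
      rw [dist_eq_norm, dist_eq_norm, hzfield, NNReal.coe_one, one_mul] at h1
      linarith
    have hlow := pvHilbert_lower hx0 (by linarith) hw N (a := a₀) (by linarith)
    show (N : ℝ) / 128 < |pvHilbert focusField a₀ (testFun N) x|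
    refine lt_of_lt_of_le ?_ (le_abs_self _)
    linarith
  refine lt_of_lt_of_le ?_ (measure_mono hsub)
  rw [← ENNReal.ofReal_toReal hRfin.ne]
  apply (ENNReal.ofReal_lt_ofReal_iff hm0).2
  have hint : ∫ x, (testSchwartz N x) ^ 2 ≤ N * β := integral_testFun_sq_le N
  have hint0 : 0 ≤ ∫ x, (testSchwartz N x) ^ 2 := integral_nonneg fun x => sq_nonneg _
  have hlam : (0 : ℝ) ≤ ((N : ℝ) / 128)⁻¹ ^ 2 := by positivity
  calc C * ((N : ℝ) / 128)⁻¹ ^ 2 * ∫ x, (testSchwartz N x) ^ 2
      ≤ |C| * ((N : ℝ) / 128)⁻¹ ^ 2 * (N * β) := by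
        apply mul_le_mul _ hint hint0 (by positivity)
        exact mul_le_mul_of_nonneg_right (le_abs_self C) hlam
    _ = 16384 * |C| * β / N := by
        field_simp
        ring
    _ < m := by
        rw [div_lt_iff₀ hN0]
        rw [div_lt_iff₀ hm0] at hN
        linarith

theorem result :
    (∃ v : Plane → Plane, (∀ x, ‖v x‖ = 1) ∧ LipschitzWith 1 v ∧
      ∀ a₀ : ℝ, 1 < a₀ → ∀ C : ℝ, ∃ f : SchwartzMap Plane ℝ, ∃ lam : ℝ, 0 < lam ∧
        ENNReal.ofReal (C * lam⁻¹ ^ 2 * ∫ x, (f x) ^ 2)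
          < volume {x : Plane | lam < |pvHilbert v a₀ f x|})
    ∧ ∀ a₀ : ℝ, 1 < a₀ → ∀ C : ℝ, ¬ SteinEstimate a₀ C := by
  refine ⟨⟨focusField, norm_focusField, lipschitz_focusField, failure⟩, ?_⟩
  intro a₀ ha C hS
  obtain ⟨f, lam, hlam, hlt⟩ := failure a₀ ha C
  exact absurd (hS focusField norm_focusField lipschitz_focusField f lam hlam) (not_le.2 hlt)

end Vale.Agent.Results.P112.TruncationNecessary
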